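/-
helper3 — S0175 project, Part II, package RG0: the generic smooth-root lemma
(`Crest.Agent.Helper32.Spec.contDiffAt_root`, verbatim), via the inverse function theorem for
`(w, x) ↦ (F (w, x), x)`.
-/
import Mathlib

set_option autoImplicit false
open Set Filter Topology
open scoped ContDiff

namespace Crest.Agent.Helper3

section RG0
variable {X : Type*} [NormedAddCommGroup X] [NormedSpace ℝ X]

/-- the linear map `(h, v) ↦ (D (h, v), v)` -/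
noncomputable def rootFwd (D : ℝ × X →L[ℝ] ℝ) : ℝ × X →L[ℝ] ℝ × X :=
  D.prod (ContinuousLinearMap.snd ℝ ℝ X)

/-- the linear map `(c, v) ↦ ((c - D (0, v)) / D (1, 0), v)` -/
noncomputable def rootBwd (D : ℝ × X →L[ℝ] ℝ) : ℝ × X →L[ℝ] ℝ × X :=
  ((D (1, 0))⁻¹ • (ContinuousLinearMap.fst ℝ ℝ X -
      D.comp ((ContinuousLinearMap.inr ℝ ℝ X).comp (ContinuousLinearMap.snd ℝ ℝ X)))).prod
    (ContinuousLinearMap.snd ℝ ℝ X)

theorem rootFwd_apply (D : ℝ × X →L[ℝ] ℝ) (p : ℝ × X) : rootFwd D p = (D p, p.2) := rfl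

theorem rootBwd_apply (D : ℝ × X →L[ℝ] ℝ) (p : ℝ × X) :
    rootBwd D p = ((D (1, 0))⁻¹ * (p.1 - D (0, p.2)), p.2) := by
  unfold rootBwd
  simp

theorem root_split (D : ℝ × X →L[ℝ] ℝ) (p : ℝ × X) : D p = p.1 * D (1, 0) + D (0, p.2) := by
  have h : p = p.1 • ((1 : ℝ), (0 : X)) + ((0 : ℝ), p.2) := by
    ext <;> simp
  conv_lhs => rw [h]
  rw [map_add, map_smul, smul_eq_mul]

/-- `(h, v) ↦ (D (h, v), v)` is a continuous linear equivalence when `D (1, 0) ≠ 0` -/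
noncomputable def rootEquiv (D : ℝ × X →L[ℝ] ℝ) (hD : D (1, 0) ≠ 0) : (ℝ × X) ≃L[ℝ] (ℝ × X) :=
  ContinuousLinearEquiv.equivOfInverse (rootFwd D) (rootBwd D)
    (by
      intro p
      rw [rootFwd_apply, rootBwd_apply]
      refine Prod.ext ?_ rfl
      simp only
      rw [root_split D p]
      field_simp
      ring)
    (by
      intro p
      rw [rootBwd_apply, rootFwd_apply]
      refine Prod.ext ?_ rfl
      simp only
      rw [root_split D]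
      simp only
      field_simp
      ring)

theorem rootEquiv_coe (D : ℝ × X →L[ℝ] ℝ) (hD : D (1, 0) ≠ 0) :
    ((rootEquiv D hD : (ℝ × X) ≃L[ℝ] (ℝ × X)) : ℝ × X →L[ℝ] ℝ × X) = rootFwd D := rfl

/-- (RG0) generic smooth-root lemma (inverse function theorem for `(w,x) ↦ (F (w,x), x)`) -/
theorem contDiffAt_root {X : Type*} [NormedAddCommGroup X] [NormedSpace ℝ X] [CompleteSpace X]
    (F : ℝ × X → ℝ) (U : Set (ℝ × X)) (hU : IsOpen U) (hF : ContDiffOn ℝ ∞ F U)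
    (hinj : ∀ w w' x, (w, x) ∈ U → (w', x) ∈ U → F (w, x) = F (w', x) → w = w')
    (hder : ∀ p ∈ U, fderiv ℝ F p (1, 0) ≠ 0)
    (r : X → ℝ) (x₀ : X) (hr : ∀ᶠ x in 𝓝 x₀, (r x, x) ∈ U ∧ F (r x, x) = 0) :
    ContDiffAt ℝ ∞ r x₀ := by
  obtain ⟨hp₀U, hp₀F⟩ := hr.self_of_nhds
  set p₀ : ℝ × X := (r x₀, x₀) with hp₀
  have hFat : ContDiffAt ℝ ∞ F p₀ := hF.contDiffAt (hU.mem_nhds hp₀U)
  have hFd : HasFDerivAt F (fderiv ℝ F p₀) p₀ :=
    (hFat.differentiableAt (by simp)).hasFDerivAt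
  set D : ℝ × X →L[ℝ] ℝ := fderiv ℝ F p₀ with hD
  have hD0 : D (1, 0) ≠ 0 := hder p₀ hp₀U
  set Φ : ℝ × X → ℝ × X := fun p => (F p, p.2) with hΦ
  have hΦc : ContDiffAt ℝ ∞ Φ p₀ := hFat.prodMk contDiffAt_snd
  have hΦd : HasFDerivAt Φ ((rootEquiv D hD0 : (ℝ × X) ≃L[ℝ] (ℝ × X)) : ℝ × X →L[ℝ] ℝ × X) p₀ := by
    rw [rootEquiv_coe]
    exact hFd.prodMk hasFDerivAt_snd
  have hn : (∞ : WithTop ℕ∞) ≠ 0 := by simp
  set Ψ : ℝ × X → ℝ × X := hΦc.localInverse hΦd hn with hΨ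
  have hΦp₀ : Φ p₀ = (0, x₀) := by
    simp only [hΦ, hp₀]
    rw [hp₀F]
  have hΨc : ContDiffAt ℝ ∞ Ψ (0, x₀) := by
    have := hΦc.to_localInverse hΦd hn
    rwa [hΦp₀] at this
  have hΨp₀ : Ψ (0, x₀) = p₀ := by
    have := hΦc.localInverse_apply_image hΦd hn
    rwa [hΦp₀] at this
  have hstrict := hΦc.hasStrictFDerivAt' hΦd hn
  have e1 : ∀ᶠ q in 𝓝 ((0 : ℝ), x₀), Φ (Ψ q) = q := by
    have := hstrict.eventually_right_inverse
    rwa [hΦp₀] at this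
  have e2 : ∀ᶠ q in 𝓝 ((0 : ℝ), x₀), Ψ q ∈ U := by
    have hcont : ContinuousAt Ψ (0, x₀) := hΨc.continuousAt
    have hmem : U ∈ 𝓝 (Ψ (0, x₀)) := by rw [hΨp₀]; exact hU.mem_nhds hp₀U
    exact hcont.eventually_mem hmem
  have hι : ContinuousAt (fun x : X => ((0 : ℝ), x)) x₀ := by fun_prop
  have e1' : ∀ᶠ x in 𝓝 x₀, Φ (Ψ (0, x)) = (0, x) := hι.eventually e1
  have e2' : ∀ᶠ x in 𝓝 x₀, Ψ (0, x) ∈ U := hι.eventually e2
  have heq : r =ᶠ[𝓝 x₀] fun x => (Ψ (0, x)).1 := by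
    filter_upwards [e1', e2', hr] with x h1 h2 h3
    have h1a : F (Ψ (0, x)) = 0 := congrArg Prod.fst h1
    have h1b : (Ψ (0, x)).2 = x := congrArg Prod.snd h1
    have h2' : ((Ψ (0, x)).1, x) ∈ U := by
      have : ((Ψ (0, x)).1, x) = Ψ (0, x) := Prod.ext rfl h1b.symm
      rw [this]; exact h2
    have h1a' : F ((Ψ (0, x)).1, x) = 0 := by
      have : ((Ψ (0, x)).1, x) = Ψ (0, x) := Prod.ext rfl h1b.symm
      rw [this]; exact h1a
    exact hinj _ _ x h3.1 h2' (h3.2.trans h1a'.symm)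
  have hsm : ContDiffAt ℝ ∞ (fun x => (Ψ (0, x)).1) x₀ := by
    have hι' : ContDiffAt ℝ ∞ (fun x : X => ((0 : ℝ), x)) x₀ :=
      contDiffAt_const.prodMk contDiffAt_id
    have := hΨc.comp x₀ hι'
    exact contDiffAt_fst.comp x₀ this
  exact hsm.congr_of_eventuallyEq heq

end RG0

end Crest.Agent.Helper3
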