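/-
helper3 — S0175 project, Part II: BASIC lemmas for package DI (owner: helper35) —
rotations `rotM` of the model space (group law, period, norm, volume preservation, polar form),
torus / `Ybase` / `rhoA` elementary facts.  No Spec statement here.
-/
import Mathlib
import Crest.Prelude.Def_MultiMarginal
import Crest.Agent.Helper32.GeomDefs
import Crest.Agent.Helper3.TwoShell.TS0

set_option autoImplicit false
open MeasureTheory Set Filter Topology
open scoped ENNReal ContDiff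
open Crest.AnalysisR.OT
open Crest.Agent.Helper32

namespace Crest.Agent.Helper3

section DIbasic
variable {k : ℕ}

/-! ### the rotation `rotM` -/

theorem rotM_fst (t : ℝ) (x : MS k) :
    (rotM t x).1 = Complex.exp (2 * (Real.pi : ℂ) * (t : ℂ) * Complex.I) * x.1 := rfl

theorem rotM_snd (t : ℝ) (x : MS k) : (rotM t x).2 = x.2 := rfl

theorem norm_exp_turn (t : ℝ) :
    ‖Complex.exp (2 * (Real.pi : ℂ) * (t : ℂ) * Complex.I)‖ = 1 := by
  have h : (2 * (Real.pi : ℂ) * (t : ℂ) * Complex.I) = ((2 * Real.pi * t : ℝ) : ℂ) * Complex.I := by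
    push_cast; ring
  rw [h, Complex.norm_exp_ofReal_mul_I]

theorem rotM_norm_fst (t : ℝ) (x : MS k) : ‖(rotM t x).1‖ = ‖x.1‖ := by
  rw [rotM_fst, norm_mul, norm_exp_turn, one_mul]

theorem rotM_add (t θ : ℝ) (x : MS k) : rotM (t + θ) x = rotM t (rotM θ x) := by
  unfold rotM
  refine Prod.ext ?_ rfl
  simp only
  rw [← mul_assoc, ← Complex.exp_add]
  congr 2
  push_cast; ring

theorem rotM_add_one (t : ℝ) (x : MS k) : rotM (t + 1) x = rotM t x := by
  unfold rotM
  refine Prod.ext ?_ rfl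
  simp only
  congr 1
  have h : (2 * (Real.pi : ℂ) * ((t + 1 : ℝ) : ℂ) * Complex.I) =
      2 * (Real.pi : ℂ) * (t : ℂ) * Complex.I + 2 * Real.pi * Complex.I := by
    push_cast; ring
  rw [h, Complex.exp_add, Complex.exp_two_pi_mul_I, mul_one]

theorem continuous_rotM_uncurry :
    Continuous (fun p : ℝ × MS k => rotM p.1 p.2) := by
  unfold rotM
  fun_prop

theorem measurable_rotM_uncurry :
    Measurable (fun p : ℝ × MS k => rotM p.1 p.2) :=
  continuous_rotM_uncurry.measurable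

theorem measurable_rotM (t : ℝ) : Measurable (rotM (k := k) t) := by
  have : Continuous (rotM (k := k) t) := by unfold rotM; fun_prop
  exact this.measurable

/-- a point is the rotation of its "base point" by its argument -/
theorem rotM_arg (x : MS k) :
    rotM (Complex.arg x.1 / (2 * Real.pi)) (((‖x.1‖ : ℝ) : ℂ), x.2) = x := by
  unfold rotM
  refine Prod.ext ?_ rfl
  simp only
  have h : (2 * (Real.pi : ℂ) * ((Complex.arg x.1 / (2 * Real.pi) : ℝ) : ℂ) * Complex.I) =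
      (Complex.arg x.1 : ℂ) * Complex.I := by
    push_cast
    have : (Real.pi : ℂ) ≠ 0 := by exact_mod_cast Real.pi_ne_zero
    field_simp
  rw [h, mul_comm]
  exact Complex.norm_mul_exp_arg_mul_I x.1

/-- rotations preserve the volume of the model space -/
theorem measurePreserving_rotM (t : ℝ) :
    MeasurePreserving (rotM (k := k) t) volume volume := by
  have h1 : MeasurePreserving (rotation (Circle.exp (2 * Real.pi * t))) (volume : Measure ℂ)
      volume := LinearIsometryEquiv.measurePreserving _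
  have h2 : MeasurePreserving (id : EuclideanSpace ℝ (Fin k) → EuclideanSpace ℝ (Fin k))
      volume volume := MeasurePreserving.id _
  have h3 := h1.prod h2
  have h4 : rotM (k := k) t = Prod.map (rotation (Circle.exp (2 * Real.pi * t))) id := by
    funext x
    unfold rotM
    refine Prod.ext ?_ rfl
    simp only [Prod.map_fst, rotation_apply, Circle.coe_exp]
    congr 2
    push_cast; ring
  rw [h4]
  exact h3

/-! ### torus, `Ybase`, `rhoA` -/

theorem norm_sq_gt_of_mem_torus {ε : ℝ} {x : MS k} (hx : x ∈ torus ε) : ε < ‖x.1‖ ^ 2 := by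
  have h : (‖x.1‖ ^ 2 - 2 * ε) ^ 2 + ‖x.2‖ ^ 2 < ε ^ 2 := hx
  have h2 : 0 ≤ ‖x.2‖ ^ 2 := sq_nonneg _
  nlinarith [sq_nonneg (‖x.1‖ ^ 2 - 2 * ε + ε), sq_nonneg (‖x.1‖ ^ 2 - 2 * ε - ε)]

theorem norm_pos_of_mem_torus {ε : ℝ} (hε : 0 < ε) {x : MS k} (hx : x ∈ torus ε) :
    0 < ‖x.1‖ := by
  have h := norm_sq_gt_of_mem_torus hx
  have h0 : 0 ≤ ‖x.1‖ := norm_nonneg _
  rcases h0.lt_or_eq with h1 | h1
  · exact h1
  · rw [← h1] at h; norm_num at h; linarith

theorem baseMap_mem_Ybase_iff {ε : ℝ} (hε : 0 < ε) (x : MS k) :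
    baseMap x ∈ Ybase k ε ↔ x ∈ torus ε := by
  constructor
  · intro h; exact h.2
  · intro h; exact ⟨norm_pos_of_mem_torus hε h, h⟩

theorem rotM_mem_torus_iff {ε : ℝ} (t : ℝ) (x : MS k) : rotM t x ∈ torus ε ↔ x ∈ torus ε := by
  unfold torus
  show (‖(rotM t x).1‖ ^ 2 - 2 * ε) ^ 2 + ‖(rotM t x).2‖ ^ 2 < ε ^ 2 ↔ _
  rw [rotM_norm_fst, rotM_snd]
  exact Iff.rfl

theorem rhoA0_rot (ε : ℝ) (t : ℝ) (x : MS k) : rhoA0 ε (rotM t x) = rhoA0 ε x := by
  unfold rhoA0
  rw [rotM_norm_fst, rotM_snd]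

theorem rhoA_rot' (ε : ℝ) (t : ℝ) (x : MS k) : rhoA ε (rotM t x) = rhoA ε x := by
  unfold rhoA
  rw [rhoA0_rot]

theorem rhoA0_eq_zero_of_notMem {ε : ℝ} {x : MS k} (hx : x ∉ torus ε) : rhoA0 ε x = 0 := by
  unfold rhoA0
  have h : ε ^ 2 - (‖x.1‖ ^ 2 - 2 * ε) ^ 2 - ‖x.2‖ ^ 2 ≤ 0 := by
    have : ¬ ((‖x.1‖ ^ 2 - 2 * ε) ^ 2 + ‖x.2‖ ^ 2 < ε ^ 2) := hx
    linarith [not_lt.mp this]
  rw [expNegInvGlue.zero_of_nonpos h]
  norm_num

theorem rhoA_eq_zero_of_notMem {ε : ℝ} {x : MS k} (hx : x ∉ torus ε) : rhoA ε x = 0 := by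
  unfold rhoA
  rw [rhoA0_eq_zero_of_notMem hx, zero_div]

theorem continuous_rhoA0 (ε : ℝ) : Continuous (rhoA0 (k := k) ε) := by
  unfold rhoA0
  have h : Continuous expNegInvGlue := (expNegInvGlue.contDiff (n := 0)).continuous
  fun_prop

theorem continuous_rhoA (ε : ℝ) : Continuous (rhoA (k := k) ε) := by
  unfold rhoA
  exact (continuous_rhoA0 ε).div_const _

theorem measurable_rhoA (ε : ℝ) : Measurable (rhoA (k := k) ε) := (continuous_rhoA ε).measurable

theorem measurable_baseMap : Measurable (baseMap (k := k)) := by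
  unfold baseMap
  fun_prop

theorem isOpen_Ybase (ε : ℝ) : IsOpen (Ybase k ε) := by
  have h1 : IsOpen {b : ℝ × EuclideanSpace ℝ (Fin k) | 0 < b.1} :=
    isOpen_lt continuous_const continuous_fst
  have h2 : IsOpen {b : ℝ × EuclideanSpace ℝ (Fin k) | (b.1 ^ 2 - 2 * ε) ^ 2 + ‖b.2‖ ^ 2 < ε ^ 2} :=
    isOpen_lt (by fun_prop) continuous_const
  exact h1.inter h2

end DIbasic

end Crest.Agent.Helper3
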